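import Vale.Agent.P296.Final2

/-! An ample rank two bundle on a smooth connected projective variety with no smooth strictly
Griffiths positive Hermitian metric; ampleness is witnessed by a projective embedding. -/

open Vale.Agent.P296

theorem Vale.Agent.Results.P296.Embed.result :
    ∃ (X : Set ((Fin 3 → ℂ) × (Fin 8 → ℂ)))
      (O : Fin 2 × Fin 3 → Set ((Fin 3 → ℂ) × (Fin 8 → ℂ)))
      (T : Fin 2 × Fin 3 → Fin 2 × Fin 3 → (Fin 3 → ℂ) × (Fin 8 → ℂ) → Matrix (Fin 2) (Fin 2) ℂ),
      IsConnected X ∧ ProjMfd X ∧ Bundle X O T ∧ AmpleV X O T ∧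
        ¬∃ h, HMetric X O T h ∧ Griffiths X O h :=
  final2
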